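import Vale.Agent.P032.H605.F10
import Vale.Agent.P032.S5.H555.Cut

/-!
# P032: clause family F11 (the graph of the exact pairs)

`M605 T w a b` : `{a, b}` is the palette of a point of `S(w)`, `a`, `b` in `T w`, `a ≠ b`.

`deg_le` : a colour of a point with `n ≥ 4` colours has at most `n - 3` partners.
`M5_724` : `|T w| ≤ 5` : no three partners.  `M6_724` : no four partners.
`C5_724` : `|T w| ≤ 5` : no 4-cycle.  `K23_724` : no `K_{2,3}`.
`defM_724` : a limit letter with exactly two colours, both in `T w`.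
-/

open Set Filter Topology Metric

noncomputable section

namespace Vale.Agent.P032.H724

open Vale.Agent.P032.Six Vale.Agent.P032.H437 Vale.Agent.P032.H605

variable {U : Fin 6 → Set ℂ} {T : ℂ → Set (Fin 6)} {w : ℂ} {i a b c d e : Fin 6}

/-- the palette of `w` contains the listed colours -/
theorem five_of {S : Set (Fin 6)} {l : List (Fin 6)} (hl : l.Nodup) (hS : ∀ x ∈ l, x ∈ S) :
    l.length ≤ S.ncard := by
  classical
  have h1 : (l.toFinset : Set (Fin 6)) ⊆ S := fun x hx => hS x (by simpa using hx)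
  have h2 := Set.ncard_le_ncard h1 (Set.toFinite _)
  rwa [Set.ncard_coe_finset, List.toFinset_card_of_nodup hl] at h2

/-- **degree** : the partners of `i` and the two colours which are not partners -/
theorem deg_le (h : Irr U T)
    (hmin : ∀ z, 4 ≤ (T z).ncard → ∀ s, s ⊆ T z → s ≠ T z →
      ¬ ∀ᶠ w in 𝓝 z, ∃ i ∈ s, w ∈ U i ∨ (w ∈ XX U ∧ i ∈ Pal U w))
    {l : List (Fin 6)} (hl : l.Nodup) (hM : ∀ x ∈ l, M605 T w i x) (h4 : 4 ≤ (T w).ncard)
    (hi : i ∈ T w) : l.length + 3 ≤ (T w).ncard := by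
  obtain ⟨x, y, hx, hy, hxi, hyi, hxy, h1, h2⟩ := h.two_contacts hmin h4 hi
  have hnx : x ∉ l := fun hxl => by
    obtain ⟨-, -, -, q, h5, h6⟩ := hM x hxl
    exact h1 q h5 h6
  have hny : y ∉ l := fun hyl => by
    obtain ⟨-, -, -, q, h5, h6⟩ := hM y hyl
    exact h2 q h5 h6
  have hni : i ∉ l := fun hil => (hM i hil).1 rfl
  have key := five_of (S := T w) (l := i :: x :: y :: l) (by
    simp only [List.nodup_cons, List.mem_cons, not_or]
    exact ⟨⟨hxi.symm, hyi.symm, hni⟩, ⟨hxy, hnx⟩, hny, hl⟩) (by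
    intro m hm
    simp only [List.mem_cons] at hm
    rcases hm with rfl | rfl | rfl | hm
    · exact hi
    · exact hx
    · exact hy
    · exact (hM m hm).2.2.1)
  simp only [List.length_cons] at key
  omega

/-- **M5** : at most two partners at a point with at most five colours -/
theorem M5_724 (h : Irr U T)
    (hmin : ∀ z, 4 ≤ (T z).ncard → ∀ s, s ⊆ T z → s ≠ T z →
      ¬ ∀ᶠ w in 𝓝 z, ∃ i ∈ s, w ∈ U i ∨ (w ∈ XX U ∧ i ∈ Pal U w))
    (h5 : (T w).ncard ≤ 5) (hab : a ≠ b) (hac : a ≠ c) (hbc : b ≠ c) (ha : M605 T w i a)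
    (hb : M605 T w i b) (hc : M605 T w i c) : False := by
  have hl : [a, b, c].Nodup := by simp [hab, hac, hbc]
  have h4 : 4 ≤ (T w).ncard := five_of (l := [i, a, b, c]) (by
    simp [hab, hac, hbc, ha.1, hb.1, hc.1]) (by
    simp [ha.2.1, ha.2.2.1, hb.2.2.1, hc.2.2.1])
  have := deg_le h hmin hl (by simp [ha, hb, hc]) h4 ha.2.1
  simp at this
  omega

/-- **M6** : at most three partners -/
theorem M6_724 (h : Irr U T)
    (hmin : ∀ z, 4 ≤ (T z).ncard → ∀ s, s ⊆ T z → s ≠ T z →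
      ¬ ∀ᶠ w in 𝓝 z, ∃ i ∈ s, w ∈ U i ∨ (w ∈ XX U ∧ i ∈ Pal U w))
    (hab : a ≠ b) (hac : a ≠ c) (had : a ≠ d) (hbc : b ≠ c) (hbd : b ≠ d) (hcd : c ≠ d)
    (ha : M605 T w i a) (hb : M605 T w i b) (hc : M605 T w i c) (hd : M605 T w i d) :
    False := by
  have hl : [a, b, c, d].Nodup := by simp [hab, hac, hbc, had, hbd, hcd]
  have h4 : 4 ≤ (T w).ncard := five_of (l := [a, b, c, d]) hl (by
    simp [ha.2.2.1, hb.2.2.1, hc.2.2.1, hd.2.2.1])
  have h1 := deg_le h hmin hl (by simp [ha, hb, hc, hd]) h4 ha.2.1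
  have h6 : (T w).ncard ≤ 6 := by
    have := Set.ncard_le_card (T w)
    simpa using this
  simp at h1
  omega

/-- a bipartite complete graph with a further colour -/
theorem cut_false (h : Irr U T)
    (hmin : ∀ z, 4 ≤ (T z).ncard → ∀ s, s ⊆ T z → s ≠ T z →
      ¬ ∀ᶠ w in 𝓝 z, ∃ i ∈ s, w ∈ U i ∨ (w ∈ XX U ∧ i ∈ Pal U w))
    (hab : a ≠ b) {B : Set (Fin 6)} (hB : B.Nonempty) (haB : a ∉ B) (hbB : b ∉ B)
    (h4 : 4 ≤ (T w).ncard)
    (hx : ∀ x ∈ T w, ∀ y ∈ T w, x ∉ ({a, b} ∪ B : Set (Fin 6)) →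
      y ∉ ({a, b} ∪ B : Set (Fin 6)) → x = y)
    (hne : ∃ x ∈ T w, x ∉ ({a, b} ∪ B : Set (Fin 6))) (hc : ∀ x ∈ B, M605 T w a x)
    (hd : ∀ x ∈ B, M605 T w b x) : False := by
  obtain ⟨x, hxw, hxn⟩ := hne
  obtain ⟨y0, hy0⟩ := hB
  have haw : a ∈ T w := (hc y0 hy0).2.1
  have hbw : b ∈ T w := (hd y0 hy0).2.1
  simp only [mem_union, mem_insert_iff, mem_singleton_iff, not_or] at hxn
  refine h.no_cut hmin (z := w) (x := x) (A := {a, b}) (B := B) h4 ?_ ?_ hxn.2 ?_ ⟨a, by simp⟩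
    ⟨y0, hy0⟩ (Set.ncard_pair hab).le ?_
  · ext m
    constructor
    · intro hm
      by_cases hm' : m ∈ ({a, b} ∪ B : Set (Fin 6))
      · exact Or.inr hm'
      · exact Or.inl (hx m hm x hxw hm' (by simp [hxn]))
    · rintro (rfl | (rfl | rfl) | hm)
      · exact hxw
      · exact haw
      · exact hbw
      · exact (hc m hm).2.2.1
  · simp [hxn.1.1, hxn.1.2]
  · rw [Set.disjoint_left]
    rintro m (rfl | rfl) hm
    · exact haB hm
    · exact hbB hm
  · rintro m (rfl | rfl) n hn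
    · exact (hc n hn).2.2.2
    · exact (hd n hn).2.2.2

/-- **C5** : no 4-cycle at a point with at most five colours -/
theorem C5_724 (h : Irr U T)
    (hmin : ∀ z, 4 ≤ (T z).ncard → ∀ s, s ⊆ T z → s ≠ T z →
      ¬ ∀ᶠ w in 𝓝 z, ∃ i ∈ s, w ∈ U i ∨ (w ∈ XX U ∧ i ∈ Pal U w))
    (h5 : (T w).ncard ≤ 5) (hab : a ≠ b) (hcd : c ≠ d) (h1 : M605 T w a c) (h2 : M605 T w a d)
    (h3 : M605 T w b c) (h4 : M605 T w b d) : False := by
  have hl : [a, b, c, d].Nodup := by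
    simp [hab, hcd, h1.1, h2.1, h3.1, h4.1]
  have hm : ∀ x ∈ [a, b, c, d], x ∈ T w := by
    simp [h1.2.1, h1.2.2.1, h3.2.1, h2.2.2.1]
  have hc4 : 4 ≤ (T w).ncard := five_of hl hm
  have hd := deg_le h hmin (l := [c, d]) (by simp [hcd]) (by simp [h1, h2]) hc4 h1.2.1
  simp at hd
  have hsub : ({a, b, c, d} : Set (Fin 6)) ⊆ T w := by
    intro x hx
    exact hm x (by simpa using hx)
  have hcard : ({a, b, c, d} : Set (Fin 6)).ncard = 4 := by
    have := Set.ncard_coe_finset ([a, b, c, d] : List (Fin 6)).toFinset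
    rw [List.toFinset_card_of_nodup hl] at this
    simpa using this
  have hdiff : (T w \ {a, b, c, d}).ncard = 1 := by
    have := Set.ncard_sdiff hsub (Set.toFinite _)
    omega
  obtain ⟨x, hx⟩ := Set.ncard_eq_one.1 hdiff
  have hset : ({a, b} ∪ {c, d} : Set (Fin 6)) = {a, b, c, d} := by
    ext m; simp; tauto
  refine cut_false (w := w) h hmin hab (B := {c, d}) ⟨c, by simp⟩ (by simp [h1.1, h2.1])
    (by simp [h3.1, h4.1]) hc4 ?_ ?_ ?_ ?_
  · intro m hm1 n hn1 hm2 hn2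
    rw [hset] at hm2 hn2
    have e1 : m ∈ T w \ {a, b, c, d} := ⟨hm1, hm2⟩
    have e2 : n ∈ T w \ {a, b, c, d} := ⟨hn1, hn2⟩
    rw [hx] at e1 e2
    rw [mem_singleton_iff.1 e1, mem_singleton_iff.1 e2]
  · refine ⟨x, ?_⟩
    have e1 : x ∈ T w \ {a, b, c, d} := by rw [hx]; rfl
    rw [hset]
    exact ⟨e1.1, e1.2⟩
  · rintro m (rfl | rfl) <;> assumption
  · rintro m (rfl | rfl) <;> assumption

/-- **K23** : no `K_{2,3}` -/
theorem K23_724 (h : Irr U T)
    (hmin : ∀ z, 4 ≤ (T z).ncard → ∀ s, s ⊆ T z → s ≠ T z →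
      ¬ ∀ᶠ w in 𝓝 z, ∃ i ∈ s, w ∈ U i ∨ (w ∈ XX U ∧ i ∈ Pal U w))
    (hab : a ≠ b) (hcd : c ≠ d) (hce : c ≠ e) (hde : d ≠ e) (h1 : M605 T w a c)
    (h2 : M605 T w a d) (h3 : M605 T w a e) (h4 : M605 T w b c) (h5 : M605 T w b d)
    (h6 : M605 T w b e) : False := by
  have hl : [a, b, c, d, e].Nodup := by
    simp [hab, hcd, hce, hde, h1.1, h2.1, h3.1, h4.1, h5.1, h6.1]
  have hm : ∀ x ∈ [a, b, c, d, e], x ∈ T w := by
    simp [h1.2.1, h4.2.1, h1.2.2.1, h2.2.2.1, h3.2.2.1]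
  have hc5 : 5 ≤ (T w).ncard := five_of hl hm
  have hd := deg_le h hmin (l := [c, d, e]) (by simp [hcd, hce, hde]) (by simp [h1, h2, h3])
    (by omega) h1.2.1
  simp at hd
  have hc6 : (T w).ncard ≤ 6 := by
    have := Set.ncard_le_card (T w)
    simpa using this
  have hsub : ({a, b, c, d, e} : Set (Fin 6)) ⊆ T w := by
    intro x hx
    exact hm x (by simpa using hx)
  have hcard : ({a, b, c, d, e} : Set (Fin 6)).ncard = 5 := by
    have := Set.ncard_coe_finset ([a, b, c, d, e] : List (Fin 6)).toFinset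
    rw [List.toFinset_card_of_nodup hl] at this
    simpa using this
  have hdiff : (T w \ {a, b, c, d, e}).ncard = 1 := by
    have := Set.ncard_sdiff hsub (Set.toFinite _)
    omega
  obtain ⟨x, hx⟩ := Set.ncard_eq_one.1 hdiff
  have hset : ({a, b} ∪ {c, d, e} : Set (Fin 6)) = {a, b, c, d, e} := by
    ext m; simp; tauto
  refine cut_false (w := w) h hmin hab (B := {c, d, e}) ⟨c, by simp⟩ (by simp [h1.1, h2.1, h3.1])
    (by simp [h4.1, h5.1, h6.1]) (by omega) ?_ ?_ ?_ ?_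
  · intro m hm1 n hn1 hm2 hn2
    rw [hset] at hm2 hn2
    have e1 : m ∈ T w \ {a, b, c, d, e} := ⟨hm1, hm2⟩
    have e2 : n ∈ T w \ {a, b, c, d, e} := ⟨hn1, hn2⟩
    rw [hx] at e1 e2
    rw [mem_singleton_iff.1 e1, mem_singleton_iff.1 e2]
  · refine ⟨x, ?_⟩
    have e1 : x ∈ T w \ {a, b, c, d, e} := by rw [hx]; rfl
    rw [hset]
    exact ⟨e1.1, e1.2⟩
  · rintro m (rfl | rfl | rfl) <;> assumption
  · rintro m (rfl | rfl | rfl) <;> assumption

/-- **defM** : a limit letter with exactly two colours, both in `T w` -/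
theorem defM_724 {F : Ultrafilter ℝ} {k : ℝ} (hab : a ≠ b) (hw : ∀ x ∈ lt F T w k, x ∈ T w)
    (ha : a ∈ lt F T w k) (hb : b ∈ lt F T w k)
    (hne : ∀ x ∈ lt F T w k, x = a ∨ x = b) : M605 T w a b := by
  refine M605_of (F := F) (k := k) hab (hw a ha) (hw b hb) ?_
  ext m
  constructor
  · intro hm; exact hne m hm
  · rintro (rfl | rfl) <;> assumption

end Vale.Agent.P032.H724
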